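import Vale.Agent.Lib.P140S.Main

open MeasureTheory Real

namespace Vale.Agent.Lib.P140S

/-- Lyapunov with either `T ≤ 1` or conservation of energy -/
theorem lyapunovE {F₀ g : Om → ℝ} (h₀ : Adm F₀) (hs : Slice F₀ g) {ρ T : ℝ} (hρ : 0 < ρ)
    (hT : 0 < T) (hE : T ≤ 1 ∨ ∫ z, ‖z.2‖ ^ 2 * g z = ∫ z, ‖z.2‖ ^ 2 * F₀ z) (u : Vel) :
    relEnt (maxwz ρ T u) g ≤ relEnt (maxwz ρ T u) F₀ := by
  rcases hE with hT1 | hEq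
  · exact lyapunov h₀ hs hρ hT hT1 u
  · rw [relEnt_change hs.adm hρ hT, relEnt_change h₀ hρ hT, hs.mass, hs.mom, hEq]
    have h2 := hs.ent
    linarith

theorem stabE {F₀ g : Om → ℝ} (h₀ : Adm F₀) (hs : Slice F₀ g) {ρ T : ℝ} (hρ : 0 < ρ)
    (hT : 0 < T) (hE : T ≤ 1 ∨ ∫ z, ‖z.2‖ ^ 2 * g z = ∫ z, ‖z.2‖ ^ 2 * F₀ z) (u : Vel) :
    relEnt (maxwz ρ T u) g ≤ relEnt (maxwz ρ T u) F₀ ∧
      (∫ z, |g z - maxwz ρ T u z|) ^ 2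
        ≤ 2 * ((∫ z, F₀ z) + ∫ z, maxwz ρ T u z) * relEnt (maxwz ρ T u) F₀ := by
  have hL := lyapunovE h₀ hs hρ hT hE u
  refine ⟨hL, ?_⟩
  have h1 := l1_sq hs.adm hρ hT u
  rw [hs.mass] at h1
  have h2 : 0 ≤ ∫ z, F₀ z := integral_nonneg_of_ae h₀.nonneg
  have h3 : 0 ≤ ∫ z, maxwz ρ T u z :=
    integral_nonneg fun z => (maxw_pos hρ hT u z.2).le
  exact h1.trans (mul_le_mul_of_nonneg_left hL (by positivity))

theorem uniqE {g : Om → ℝ} {ρ T : ℝ} (hρ : 0 < ρ) (hT : 0 < T) (u : Vel)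
    (hs : Slice (maxwz ρ T u) g)
    (hE : T ≤ 1 ∨ ∫ z, ‖z.2‖ ^ 2 * g z = ∫ z, ‖z.2‖ ^ 2 * maxwz ρ T u z) :
    g =ᵐ[volume] maxwz ρ T u := by
  have hadm : Adm (maxwz ρ T u) := adm_maxw hρ hT u
  have h := (stabE hadm hs hρ hT hE u).2
  rw [relEnt_self hρ hT u, mul_zero] at h
  have h0 : 0 ≤ ∫ z, |g z - maxwz ρ T u z| := integral_nonneg fun z => abs_nonneg _
  have h1 : ∫ z, |g z - maxwz ρ T u z| = 0 := by
    have : (∫ z, |g z - maxwz ρ T u z|) ^ 2 = 0 := le_antisymm h (sq_nonneg _)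
    exact pow_eq_zero_iff (two_ne_zero) |>.mp this
  have hi : Integrable (fun z => |g z - maxwz ρ T u z|) volume :=
    (hs.adm.int_self.sub (int_maxw hT u)).abs
  rw [integral_eq_zero_iff_of_nonneg (fun z => abs_nonneg _) hi] at h1
  filter_upwards [h1] with z hz
  have : |g z - maxwz ρ T u z| = 0 := hz
  exact sub_eq_zero.mp (abs_eq_zero.mp this)

theorem two_solE {F₀ g₁ g₂ : Om → ℝ} (h₀ : Adm F₀) (h₁ : Slice F₀ g₁) (h₂ : Slice F₀ g₂)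
    {ρ T : ℝ} (hρ : 0 < ρ) (hT : 0 < T)
    (hE₁ : T ≤ 1 ∨ ∫ z, ‖z.2‖ ^ 2 * g₁ z = ∫ z, ‖z.2‖ ^ 2 * F₀ z)
    (hE₂ : T ≤ 1 ∨ ∫ z, ‖z.2‖ ^ 2 * g₂ z = ∫ z, ‖z.2‖ ^ 2 * F₀ z) (u : Vel) :
    ∫ z, |g₁ z - g₂ z| ≤
      2 * sqrt (2 * ((∫ z, F₀ z) + ∫ z, maxwz ρ T u z) * relEnt (maxwz ρ T u) F₀) := by
  have hm : Integrable (maxwz ρ T u) volume := int_maxw hT u
  have i1 : Integrable (fun z => |g₁ z - maxwz ρ T u z|) volume :=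
    (h₁.adm.int_self.sub hm).abs
  have i2 : Integrable (fun z => |g₂ z - maxwz ρ T u z|) volume :=
    (h₂.adm.int_self.sub hm).abs
  have hle : ∫ z, |g₁ z - g₂ z|
      ≤ ∫ z, (|g₁ z - maxwz ρ T u z| + |g₂ z - maxwz ρ T u z|) := by
    apply integral_mono ((h₁.adm.int_self.sub h₂.adm.int_self).abs) (i1.add i2)
    intro z
    have := abs_sub_le (g₁ z) (maxwz ρ T u z) (g₂ z)
    rw [abs_sub_comm (maxwz ρ T u z) (g₂ z)] at this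
    exact this
  rw [integral_add i1 i2] at hle
  have b1 := abs_le_sqrt (stabE h₀ h₁ hρ hT hE₁ u).2
  have b2 := abs_le_sqrt (stabE h₀ h₂ hρ hT hE₂ u).2
  have c1 := (le_abs_self _).trans b1
  have c2 := (le_abs_self _).trans b2
  linarith

/-- `T ≤ 1`, or `g` keeps the energy of `F₀` -/
def EnOK (T : ℝ) (F₀ g : Om → ℝ) : Prop :=
  T ≤ 1 ∨ ∫ z, ‖z.2‖ ^ 2 * g z = ∫ z, ‖z.2‖ ^ 2 * F₀ z

/-- the L1 distance on phase space -/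
noncomputable def l1dist (f g : Om → ℝ) : ℝ := ∫ z, |f z - g z|

/-- the quantity `2 (∫ F₀ + ∫ m) H_m(F₀)` -/
noncomputable def budget (ρ T : ℝ) (u : Vel) (F₀ : Om → ℝ) : ℝ :=
  2 * ((∫ z, F₀ z) + ∫ z, maxwz ρ T u z) * relEnt (maxwz ρ T u) F₀

end Vale.Agent.Lib.P140S
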