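import Mathlib

open MeasureTheory Real

namespace Vale.Agent.Lib.P140S

/-- velocity space R^3 -/
abbrev Vel := EuclideanSpace ℝ (Fin 3)
/-- phase space: the torus T^3 = R^3/Z^3 times R^3 -/
abbrev Om := UnitAddTorus (Fin 3) × Vel

theorem gauss_int {a : ℝ} (ha : 0 < a) (u : Vel) :
    Integrable (fun v : Vel => exp (-a * ‖v - u‖ ^ 2)) := by
  have h := GaussianFourier.integrable_cexp_neg_mul_sq_norm_add (V := Vel) (b := (a : ℂ))
    (by simpa using ha) 0 (0 : Vel)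
  have h1 : Integrable (fun v : Vel => exp (-a * ‖v‖ ^ 2)) := by
    have h2 := h.norm
    refine h2.congr (Filter.Eventually.of_forall fun v => ?_)
    simp [Complex.norm_exp]
    left
    norm_cast
  exact h1.comp_sub_right u

theorem gauss_mom {a : ℝ} (ha : 0 < a) (u : Vel) :
    Integrable (fun v : Vel => ‖v‖ ^ 2 * exp (-a * ‖v - u‖ ^ 2)) := by
  have h := gauss_int (a := a / 2) (by positivity) u
  have hm : AEStronglyMeasurable (fun v : Vel => ‖v‖ ^ 2 * exp (-a * ‖v - u‖ ^ 2)) volume := by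
    apply Continuous.aestronglyMeasurable
    fun_prop
  refine Integrable.mono' (h.const_mul (2 * (2 / a) + 2 * ‖u‖ ^ 2)) hm
    (Filter.Eventually.of_forall fun v => ?_)
  set w := ‖v - u‖ ^ 2 with hw
  have hw0 : 0 ≤ w := by positivity
  have h1 : ‖v‖ ^ 2 ≤ 2 * w + 2 * ‖u‖ ^ 2 := by
    have : ‖v‖ ≤ ‖v - u‖ + ‖u‖ := by
      calc ‖v‖ = ‖(v - u) + u‖ := by rw [sub_add_cancel]
        _ ≤ _ := norm_add_le _ _
    have h0 : 0 ≤ ‖v‖ := norm_nonneg _
    nlinarith [sq_nonneg (‖v - u‖ - ‖u‖), norm_nonneg (v - u), norm_nonneg u]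
  have h2 : exp (-a * w) = exp (-(a / 2) * w) * exp (-(a / 2) * w) := by
    rw [← exp_add]; ring_nf
  have h3 : w * exp (-(a / 2) * w) ≤ 2 / a := by
    have := add_one_le_exp ((a / 2) * w)
    have h4 : (a / 2) * w ≤ exp ((a / 2) * w) := by linarith
    have h5 : exp (-(a / 2) * w) * exp ((a / 2) * w) = 1 := by
      rw [← exp_add]; simp
    have h6 : 0 < exp (-(a / 2) * w) := exp_pos _
    have h7 : (a / 2) * (w * exp (-(a / 2) * w)) ≤ 1 := by
      calc (a / 2) * (w * exp (-(a / 2) * w)) = ((a / 2) * w) * exp (-(a / 2) * w) := by ring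
        _ ≤ exp ((a / 2) * w) * exp (-(a / 2) * w) := by gcongr
        _ = 1 := by rw [mul_comm]; exact h5
    rw [le_div_iff₀ ha]
    linarith
  have h8 : 0 ≤ exp (-(a / 2) * w) := (exp_pos _).le
  have h9 : exp (-(a / 2) * w) ≤ 1 := by
    rw [exp_le_one_iff]
    have : 0 ≤ (a / 2) * w := by positivity
    linarith
  rw [Real.norm_eq_abs, abs_of_nonneg (by positivity)]
  calc ‖v‖ ^ 2 * exp (-a * w) ≤ (2 * w + 2 * ‖u‖ ^ 2) * exp (-a * w) := by
        gcongr
    _ = (2 * (w * exp (-(a / 2) * w)) + 2 * ‖u‖ ^ 2 * exp (-(a / 2) * w)) * exp (-(a / 2) * w) := by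
        rw [h2]; ring
    _ ≤ (2 * (2 / a) + 2 * ‖u‖ ^ 2) * exp (-(a / 2) * w) := by
        apply mul_le_mul_of_nonneg_right _ h8
        have : 2 * ‖u‖ ^ 2 * exp (-(a / 2) * w) ≤ 2 * ‖u‖ ^ 2 * 1 :=
          mul_le_mul_of_nonneg_left h9 (by positivity)
        linarith
    _ = _ := by rw [show -(a / 2) * w = -(a / 2) * ‖v - u‖ ^ 2 from rfl]

end Vale.Agent.Lib.P140S
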