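import Vale.Agent.Lib.P140S.Gauss

open MeasureTheory Real

namespace Vale.Agent.Lib.P140S

/-- the reference Maxwellian M(v) = (2 pi)^(-3/2) exp(-|v|^2/2) -/
noncomputable def stdM (v : Vel) : ℝ := (2 * π) ^ (-(3 / 2 : ℝ)) * exp (-(‖v‖ ^ 2) / 2)

/-- the global Maxwellian with density rho, temperature T and bulk velocity u -/
noncomputable def maxw (ρ T : ℝ) (u v : Vel) : ℝ :=
  ρ * (2 * π * T) ^ (-(3 / 2 : ℝ)) * exp (-(‖v - u‖ ^ 2) / (2 * T))

/-- relative entropy: the integral over phase space of g log(g/m) - g + m -/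
noncomputable def relEnt (m g : Om → ℝ) : ℝ := ∫ z, (g z * log (g z / m z) - g z + m z)

/-- finite mass, energy and entropy: the class of data and solutions in the problem -/
structure Adm (g : Om → ℝ) : Prop where
  meas : AEStronglyMeasurable g volume
  nonneg : ∀ᵐ z ∂(volume : Measure Om), 0 ≤ g z
  int : Integrable (fun z => g z * (1 + ‖z.2‖ ^ 2 + |log (g z)|)) volume

theorem logMeas {g : Om → ℝ} (h : AEStronglyMeasurable g volume) :
    AEStronglyMeasurable (fun z => log (g z)) volume :=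
  (Real.measurable_log.comp_aemeasurable h.aemeasurable).aestronglyMeasurable

theorem normSqMeas : AEStronglyMeasurable (fun z : Om => ‖z.2‖ ^ 2) volume := by
  apply Continuous.aestronglyMeasurable
  fun_prop

theorem norm_big {g : Om → ℝ} {z : Om} (hz : 0 ≤ g z) :
    ‖g z * (1 + ‖z.2‖ ^ 2 + |log (g z)|)‖ = g z * (1 + ‖z.2‖ ^ 2 + |log (g z)|) := by
  rw [norm_mul, Real.norm_eq_abs, Real.norm_eq_abs, abs_of_nonneg hz,
    abs_of_nonneg (by positivity)]

theorem Adm.int_self {g : Om → ℝ} (h : Adm g) : Integrable g volume := by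
  refine Integrable.mono' h.int.norm h.meas ?_
  filter_upwards [h.nonneg] with z hz
  rw [norm_big hz, Real.norm_eq_abs, abs_of_nonneg hz]
  have : 0 ≤ ‖z.2‖ ^ 2 + |log (g z)| := by positivity
  nlinarith

theorem Adm.int_en {g : Om → ℝ} (h : Adm g) :
    Integrable (fun z => ‖z.2‖ ^ 2 * g z) volume := by
  refine Integrable.mono' h.int.norm (normSqMeas.mul h.meas) ?_
  filter_upwards [h.nonneg] with z hz
  rw [norm_big hz, Real.norm_eq_abs, abs_of_nonneg (by positivity)]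
  have : 0 ≤ 1 + |log (g z)| := by positivity
  nlinarith [mul_nonneg hz this]

theorem Adm.int_log {g : Om → ℝ} (h : Adm g) :
    Integrable (fun z => g z * log (g z)) volume := by
  refine Integrable.mono' h.int.norm (h.meas.mul (logMeas h.meas)) ?_
  filter_upwards [h.nonneg] with z hz
  rw [norm_big hz, norm_mul, Real.norm_eq_abs, Real.norm_eq_abs, abs_of_nonneg hz]
  have : 0 ≤ 1 + ‖z.2‖ ^ 2 := by positivity
  nlinarith [mul_nonneg hz this]

theorem Adm.int_mom {g : Om → ℝ} (h : Adm g) :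
    Integrable (fun z => g z • z.2) volume := by
  have hm : AEStronglyMeasurable (fun z : Om => g z • z.2) volume := by
    apply h.meas.smul
    apply Continuous.aestronglyMeasurable
    fun_prop
  refine Integrable.mono' (h.int_self.add h.int_en) hm ?_
  filter_upwards [h.nonneg] with z hz
  rw [norm_smul, Real.norm_eq_abs, abs_of_nonneg hz]
  simp only [Pi.add_apply]
  nlinarith [sq_nonneg (‖z.2‖ - 1), norm_nonneg z.2, mul_nonneg hz (sq_nonneg (‖z.2‖ - 1))]

theorem stdM_pos (v : Vel) : 0 < stdM v := by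
  unfold stdM
  positivity

theorem maxw_pos {ρ T : ℝ} (hρ : 0 < ρ) (hT : 0 < T) (u v : Vel) : 0 < maxw ρ T u v := by
  unfold maxw
  positivity

theorem log_stdM (v : Vel) :
    log (stdM v) = -(3 / 2) * log (2 * π) - ‖v‖ ^ 2 / 2 := by
  unfold stdM
  rw [log_mul (by positivity) (exp_pos _).ne', log_exp, log_rpow (by positivity)]
  ring

theorem log_maxw {ρ T : ℝ} (hρ : 0 < ρ) (hT : 0 < T) (u v : Vel) :
    log (maxw ρ T u v) = log ρ - (3 / 2) * (log (2 * π) + log T) - ‖v - u‖ ^ 2 / (2 * T) := by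
  unfold maxw
  rw [log_mul (by positivity) (exp_pos _).ne', log_exp, log_mul hρ.ne' (by positivity),
    log_rpow (by positivity), log_mul (by positivity) hT.ne']
  ring

/-- the linear coefficient in the change of reference Maxwellian -/
noncomputable def lin (ρ T : ℝ) (u v : Vel) : ℝ :=
  ((3 / 2) * log T - log ρ + ‖u‖ ^ 2 / (2 * T)) + (1 / (2 * T) - 1 / 2) * ‖v‖ ^ 2
    - (1 / T) * inner ℝ u v

theorem log_diff {ρ T : ℝ} (hρ : 0 < ρ) (hT : 0 < T) (u v : Vel) :
    log (stdM v) - log (maxw ρ T u v) = lin ρ T u v := by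
  rw [log_stdM, log_maxw hρ hT, norm_sub_sq_real, real_inner_comm]
  unfold lin
  field_simp
  ring

theorem integrand_change {ρ T : ℝ} (hρ : 0 < ρ) (hT : 0 < T) (u v : Vel) (g : ℝ) :
    g * log (g / maxw ρ T u v) - g + maxw ρ T u v
      = (g * log (g / stdM v) - g + stdM v) + g * lin ρ T u v + (maxw ρ T u v - stdM v) := by
  by_cases hg : g = 0
  · subst hg; simp
  · rw [log_div hg (maxw_pos hρ hT u v).ne', log_div hg (stdM_pos v).ne', ← log_diff hρ hT u v]
    ring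

/-- integrability of the relative entropy density against the reference Maxwellian -/
theorem Adm.int_ent {g : Om → ℝ} (h : Adm g) (hM : Integrable (fun z : Om => stdM z.2) volume) :
    Integrable (fun z : Om => g z * log (g z / stdM z.2) - g z + stdM z.2) volume := by
  have h1 : Integrable (fun z : Om => g z * log (g z) + (3 / 2) * log (2 * π) * g z
      + (1 / 2) * (‖z.2‖ ^ 2 * g z)) volume :=
    (h.int_log.add (h.int_self.const_mul _)).add (h.int_en.const_mul _)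
  have h2 : (fun z : Om => g z * log (g z / stdM z.2))
      = (fun z : Om => g z * log (g z) + (3 / 2) * log (2 * π) * g z
        + (1 / 2) * (‖z.2‖ ^ 2 * g z)) := by
    funext z
    by_cases hg : g z = 0
    · simp [hg]
    · rw [log_div hg (stdM_pos z.2).ne', log_stdM]
      ring
  have h3 : Integrable (fun z : Om => g z * log (g z / stdM z.2)) volume := by
    rw [h2]; exact h1
  exact (h3.sub h.int_self).add hM

theorem stdM_eq (v : Vel) : stdM v = (2 * π) ^ (-(3 / 2 : ℝ)) * exp (-(1 / 2) * ‖v - 0‖ ^ 2) := by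
  unfold stdM
  rw [sub_zero]
  congr 2
  ring

theorem maxw_eq (ρ T : ℝ) (u v : Vel) :
    maxw ρ T u v = ρ * (2 * π * T) ^ (-(3 / 2 : ℝ)) * exp (-(1 / (2 * T)) * ‖v - u‖ ^ 2) := by
  unfold maxw
  congr 2
  ring

theorem int_stdM : Integrable (fun z : Om => stdM z.2) volume := by
  have h := (gauss_int (a := 1 / 2) (by norm_num) 0).const_mul ((2 * π) ^ (-(3 / 2 : ℝ)))
  have h2 : Integrable stdM := by
    refine h.congr (Filter.Eventually.of_forall fun v => ?_)
    simp only [stdM_eq]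
  exact h2.comp_snd _

theorem int_maxw {ρ T : ℝ} (hT : 0 < T) (u : Vel) :
    Integrable (fun z : Om => maxw ρ T u z.2) volume := by
  have h := (gauss_int (a := 1 / (2 * T)) (by positivity) u).const_mul
    (ρ * (2 * π * T) ^ (-(3 / 2 : ℝ)))
  have h2 : Integrable (maxw ρ T u) := by
    refine h.congr (Filter.Eventually.of_forall fun v => ?_)
    simp only [maxw_eq]
  exact h2.comp_snd _

theorem int_maxw_en {ρ T : ℝ} (hT : 0 < T) (u : Vel) :
    Integrable (fun z : Om => ‖z.2‖ ^ 2 * maxw ρ T u z.2) volume := by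
  have h := (gauss_mom (a := 1 / (2 * T)) (by positivity) u).const_mul
    (ρ * (2 * π * T) ^ (-(3 / 2 : ℝ)))
  have h2 : Integrable (fun v : Vel => ‖v‖ ^ 2 * maxw ρ T u v) := by
    refine h.congr (Filter.Eventually.of_forall fun v => ?_)
    simp only [maxw_eq]
    ring
  exact h2.comp_snd (volume : Measure (UnitAddTorus (Fin 3)))

/-- a global Maxwellian lies in the class -/
theorem adm_maxw {ρ T : ℝ} (hρ : 0 < ρ) (hT : 0 < T) (u : Vel) :
    Adm (fun z : Om => maxw ρ T u z.2) := by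
  have hc : AEStronglyMeasurable (fun z : Om => maxw ρ T u z.2) volume :=
    (int_maxw hT u).1
  refine ⟨hc, Filter.Eventually.of_forall fun z => (maxw_pos hρ hT u z.2).le, ?_⟩
  have hm : AEStronglyMeasurable
      (fun z : Om => maxw ρ T u z.2 * (1 + ‖z.2‖ ^ 2 + |log (maxw ρ T u z.2)|)) volume :=
    hc.mul (((aestronglyMeasurable_const.add normSqMeas)).add (logMeas hc).norm)
  set A : ℝ := |log ρ - (3 / 2) * (log (2 * π) + log T)| with hA
  refine Integrable.mono' (((int_maxw (ρ := ρ) hT u).const_mul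
      (1 + A + ‖u‖ ^ 2 / T)).add ((int_maxw_en (ρ := ρ) hT u).const_mul (1 + 1 / T))) hm
    (Filter.Eventually.of_forall fun z => ?_)
  have hp := maxw_pos hρ hT u z.2
  have hb : |log (maxw ρ T u z.2)| ≤ A + ‖z.2‖ ^ 2 / T + ‖u‖ ^ 2 / T := by
    rw [log_maxw hρ hT]
    have h1 : ‖z.2 - u‖ ^ 2 ≤ 2 * ‖z.2‖ ^ 2 + 2 * ‖u‖ ^ 2 := by
      have : ‖z.2 - u‖ ≤ ‖z.2‖ + ‖u‖ := norm_sub_le _ _
      have h0 : 0 ≤ ‖z.2 - u‖ := norm_nonneg _
      nlinarith [sq_nonneg (‖z.2‖ - ‖u‖), norm_nonneg z.2, norm_nonneg u]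
    have h2 : ‖z.2 - u‖ ^ 2 / (2 * T) ≤ ‖z.2‖ ^ 2 / T + ‖u‖ ^ 2 / T := by
      rw [← add_div, div_le_div_iff₀ (by positivity) hT]
      nlinarith
    have h3 : 0 ≤ ‖z.2 - u‖ ^ 2 / (2 * T) := by positivity
    calc |log ρ - (3 / 2) * (log (2 * π) + log T) - ‖z.2 - u‖ ^ 2 / (2 * T)|
        ≤ |log ρ - (3 / 2) * (log (2 * π) + log T)| + |‖z.2 - u‖ ^ 2 / (2 * T)| := abs_sub _ _
      _ = A + ‖z.2 - u‖ ^ 2 / (2 * T) := by rw [abs_of_nonneg h3]
      _ ≤ _ := by linarith
  rw [norm_mul, Real.norm_eq_abs, Real.norm_eq_abs, abs_of_nonneg hp.le,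
    abs_of_nonneg (by positivity)]
  simp only [Pi.add_apply]
  have hn : 0 ≤ ‖z.2‖ ^ 2 := by positivity
  have hTi : 0 ≤ ‖z.2‖ ^ 2 / T := by positivity
  have e : ‖z.2‖ ^ 2 * maxw ρ T u z.2 * (1 / T) = maxw ρ T u z.2 * (‖z.2‖ ^ 2 / T) := by
    field_simp
  have key : maxw ρ T u z.2 * (1 + ‖z.2‖ ^ 2 + |log (maxw ρ T u z.2)|)
      ≤ maxw ρ T u z.2 * (1 + ‖z.2‖ ^ 2 + (A + ‖z.2‖ ^ 2 / T + ‖u‖ ^ 2 / T)) := by
    gcongr
  have e2 : (1 + A + ‖u‖ ^ 2 / T) * maxw ρ T u z.2 + (1 + 1 / T) * (‖z.2‖ ^ 2 * maxw ρ T u z.2)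
      = maxw ρ T u z.2 * (1 + ‖z.2‖ ^ 2 + (A + ‖z.2‖ ^ 2 / T + ‖u‖ ^ 2 / T)) := by
    field_simp
    ring
  linarith

/-- the entropy density dominates the squared Hellinger density -/
theorem hellinger_le {g m : ℝ} (hg : 0 ≤ g) (hm : 0 < m) :
    (sqrt g - sqrt m) ^ 2 ≤ g * log (g / m) - g + m := by
  have hs : sqrt g ^ 2 = g := sq_sqrt hg
  have hr : sqrt m ^ 2 = m := sq_sqrt hm.le
  rcases hg.eq_or_lt with h0 | hpos
  · subst h0
    simp only [sqrt_zero, zero_mul, sub_zero, zero_sub, even_two, Even.neg_pow, zero_add]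
    exact hr.le
  · have hsp : 0 < sqrt g := sqrt_pos.mpr hpos
    have hrp : 0 < sqrt m := sqrt_pos.mpr hm
    have e : g / m = (sqrt g / sqrt m) ^ 2 := by
      rw [div_pow, hs, hr]
    have hq : 0 < sqrt g / sqrt m := by positivity
    have hl : log (g / m) = 2 * log (sqrt g / sqrt m) := by
      rw [e, log_pow]; norm_num
    have h1 := one_sub_inv_le_log_of_pos hq
    have h2 : (sqrt g / sqrt m)⁻¹ = sqrt m / sqrt g := inv_div _ _
    rw [h2] at h1
    have h3 : g * (1 - sqrt m / sqrt g) = g - sqrt g * sqrt m := by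
      rw [mul_sub, mul_one, mul_div_assoc']
      congr 1
      rw [div_eq_iff hsp.ne']
      nlinarith
    have h4 : g * (1 - sqrt m / sqrt g) ≤ g * log (sqrt g / sqrt m) :=
      mul_le_mul_of_nonneg_left h1 hg
    rw [hl]
    nlinarith

/-- pointwise step from the entropy density to the L1 distance -/
theorem abs_sub_le_ent {g m ε : ℝ} (hg : 0 ≤ g) (hm : 0 < m) (hε : 0 < ε) :
    |g - m| ≤ ε * (g + m) + (g * log (g / m) - g + m) / (2 * ε) := by
  have hs : sqrt g ^ 2 = g := sq_sqrt hg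
  have hr : sqrt m ^ 2 = m := sq_sqrt hm.le
  have hH := hellinger_le hg hm
  set a := sqrt g - sqrt m with ha
  set b := sqrt g + sqrt m with hb
  have hfac : g - m = a * b := by
    rw [ha, hb]; nlinarith
  have hb2 : b ^ 2 ≤ 2 * (g + m) := by
    rw [hb]; nlinarith [sq_nonneg (sqrt g - sqrt m)]
  have hb0 : 0 ≤ b := by rw [hb]; positivity
  have h1 : |a| * b ≤ a ^ 2 / (2 * ε) + ε / 2 * b ^ 2 := by
    have h2 : 0 ≤ (|a| / (sqrt (2 * ε)) - sqrt (ε / 2) * b) ^ 2 := sq_nonneg _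
    have h3 : sqrt (2 * ε) ^ 2 = 2 * ε := sq_sqrt (by positivity)
    have h4 : sqrt (ε / 2) ^ 2 = ε / 2 := sq_sqrt (by positivity)
    have h5 : sqrt (2 * ε) * sqrt (ε / 2) = ε := by
      rw [← sqrt_mul (by positivity)]
      rw [show 2 * ε * (ε / 2) = ε ^ 2 by ring, sqrt_sq hε.le]
    have hp : 0 < sqrt (2 * ε) := sqrt_pos.mpr (by positivity)
    have h6 : (|a| / sqrt (2 * ε) - sqrt (ε / 2) * b) ^ 2
        = a ^ 2 / (2 * ε) + ε / 2 * b ^ 2 - |a| * b := by
      have e1 : sqrt (ε / 2) = ε / sqrt (2 * ε) := by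
        rw [eq_div_iff hp.ne']; linarith
      have h7 : (|a| / sqrt (2 * ε)) ^ 2 = a ^ 2 / (2 * ε) := by
        rw [div_pow, sq_abs, h3]
      have h8 : (|a| / sqrt (2 * ε)) * sqrt (ε / 2) = |a| / 2 := by
        rw [e1]
        field_simp
        rw [h3]
        ring
      calc (|a| / sqrt (2 * ε) - sqrt (ε / 2) * b) ^ 2
          = (|a| / sqrt (2 * ε)) ^ 2 + sqrt (ε / 2) ^ 2 * b ^ 2
            - 2 * ((|a| / sqrt (2 * ε)) * sqrt (ε / 2)) * b := by ring
        _ = _ := by rw [h7, h4, h8]; ring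
    rw [h6] at h2
    linarith
  have h9 : a ^ 2 / (2 * ε) ≤ (g * log (g / m) - g + m) / (2 * ε) := by
    apply div_le_div_of_nonneg_right hH (by positivity)
  have h10 : ε / 2 * b ^ 2 ≤ ε * (g + m) := by
    nlinarith
  rw [hfac, abs_mul, abs_of_nonneg hb0]
  linarith

/-- the reference Maxwellian on phase space -/
noncomputable def stdMz (z : Om) : ℝ := stdM z.2

/-- a global Maxwellian on phase space -/
noncomputable def maxwz (ρ T : ℝ) (u : Vel) (z : Om) : ℝ := maxw ρ T u z.2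

/-- a state g at some time of an evolution from the datum F0: class, conserved mass and
momentum, energy and entropy H_M not above their initial values -/
structure Slice (F₀ g : Om → ℝ) : Prop where
  adm : Adm g
  mass : ∫ z, g z = ∫ z, F₀ z
  mom : ∫ z, g z • z.2 = ∫ z, F₀ z • z.2
  en : ∫ z, ‖z.2‖ ^ 2 * g z ≤ ∫ z, ‖z.2‖ ^ 2 * F₀ z
  ent : relEnt stdMz g ≤ relEnt stdMz F₀

theorem Adm.int_lin {g : Om → ℝ} (h : Adm g) (ρ T : ℝ) (u : Vel) :
    Integrable (fun z : Om => g z * lin ρ T u z.2) volume := by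
  have h1 := ((h.int_self.const_mul ((3 / 2) * log T - log ρ + ‖u‖ ^ 2 / (2 * T))).add
    (h.int_en.const_mul (1 / (2 * T) - 1 / 2))).sub
    ((h.int_mom.inner_const (𝕜 := ℝ) u).const_mul (1 / T))
  refine h1.congr (Filter.Eventually.of_forall fun z => ?_)
  simp only [Pi.add_apply, Pi.sub_apply, lin, real_inner_smul_left, real_inner_comm u z.2]
  ring

theorem Adm.integral_lin {g : Om → ℝ} (h : Adm g) (ρ T : ℝ) (u : Vel) :
    ∫ z : Om, g z * lin ρ T u z.2 = ((3 / 2) * log T - log ρ + ‖u‖ ^ 2 / (2 * T)) * (∫ z, g z)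
      + (1 / (2 * T) - 1 / 2) * (∫ z, ‖z.2‖ ^ 2 * g z)
      - (1 / T) * inner ℝ u (∫ z, g z • z.2) := by
  have e : ∀ z : Om, g z * lin ρ T u z.2
      = ((3 / 2) * log T - log ρ + ‖u‖ ^ 2 / (2 * T)) * g z
        + (1 / (2 * T) - 1 / 2) * (‖z.2‖ ^ 2 * g z)
        - (1 / T) * inner ℝ u (g z • z.2) := by
    intro z
    simp only [lin, real_inner_smul_right]
    ring
  simp_rw [e]
  have hA : Integrable (fun z : Om => ((3 / 2) * log T - log ρ + ‖u‖ ^ 2 / (2 * T)) * g z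
      + (1 / (2 * T) - 1 / 2) * (‖z.2‖ ^ 2 * g z)) volume :=
    (h.int_self.const_mul _).add (h.int_en.const_mul _)
  rw [integral_sub hA ((h.int_mom.const_inner (𝕜 := ℝ) u).const_mul _),
    integral_add (h.int_self.const_mul _) (h.int_en.const_mul _),
    integral_const_mul, integral_const_mul, integral_const_mul, integral_inner h.int_mom]

theorem Adm.int_ent_maxw {g : Om → ℝ} (h : Adm g) {ρ T : ℝ} (hρ : 0 < ρ) (hT : 0 < T) (u : Vel) :
    Integrable (fun z : Om => g z * log (g z / maxwz ρ T u z) - g z + maxwz ρ T u z) volume := by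
  have h1 := ((h.int_ent int_stdM).add (h.int_lin ρ T u)).add
    ((int_maxw (ρ := ρ) hT u).sub int_stdM)
  refine h1.congr (Filter.Eventually.of_forall fun z => ?_)
  simp only [Pi.add_apply, Pi.sub_apply, maxwz]
  rw [integrand_change hρ hT]

theorem relEnt_change {g : Om → ℝ} (h : Adm g) {ρ T : ℝ} (hρ : 0 < ρ) (hT : 0 < T) (u : Vel) :
    relEnt (maxwz ρ T u) g = relEnt stdMz g
      + (((3 / 2) * log T - log ρ + ‖u‖ ^ 2 / (2 * T)) * (∫ z, g z)
        + (1 / (2 * T) - 1 / 2) * (∫ z, ‖z.2‖ ^ 2 * g z)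
        - (1 / T) * inner ℝ u (∫ z, g z • z.2))
      + ((∫ z : Om, maxwz ρ T u z) - ∫ z : Om, stdMz z) := by
  rw [← h.integral_lin ρ T u]
  have hm : Integrable (maxwz ρ T u) volume := int_maxw hT u
  have hs : Integrable stdMz volume := int_stdM
  have he : Integrable (fun z : Om => g z * log (g z / stdMz z) - g z + stdMz z) volume :=
    h.int_ent int_stdM
  have e : ∀ z : Om, g z * log (g z / maxwz ρ T u z) - g z + maxwz ρ T u z
      = (g z * log (g z / stdMz z) - g z + stdMz z) + g z * lin ρ T u z.2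
        + (maxwz ρ T u z - stdMz z) := by
    intro z
    simp only [maxwz, stdMz]
    rw [integrand_change hρ hT]
  unfold relEnt
  simp_rw [e]
  have hA : Integrable (fun z : Om => (g z * log (g z / stdMz z) - g z + stdMz z)
      + g z * lin ρ T u z.2) volume := he.add (h.int_lin ρ T u)
  have hB : Integrable (fun z : Om => maxwz ρ T u z - stdMz z) volume := hm.sub hs
  rw [integral_add hA hB, integral_add he (h.int_lin ρ T u), integral_sub hm hs]

/-- Lyapunov: relative entropy to any Maxwellian of temperature at most 1 does not increase -/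
theorem lyapunov {F₀ g : Om → ℝ} (h₀ : Adm F₀) (hs : Slice F₀ g) {ρ T : ℝ} (hρ : 0 < ρ)
    (hT : 0 < T) (hT1 : T ≤ 1) (u : Vel) :
    relEnt (maxwz ρ T u) g ≤ relEnt (maxwz ρ T u) F₀ := by
  rw [relEnt_change hs.adm hρ hT, relEnt_change h₀ hρ hT, hs.mass, hs.mom]
  have hc : 0 ≤ 1 / (2 * T) - 1 / 2 := by
    rw [sub_nonneg]
    apply one_div_le_one_div_of_le (by positivity)
    linarith
  have h1 := mul_le_mul_of_nonneg_left hs.en hc
  have h2 := hs.ent
  linarith

theorem relEnt_nonneg {g : Om → ℝ} (h : Adm g) {ρ T : ℝ} (hρ : 0 < ρ) (hT : 0 < T) (u : Vel) :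
    0 ≤ relEnt (maxwz ρ T u) g := by
  apply integral_nonneg_of_ae
  filter_upwards [h.nonneg] with z hz
  have := hellinger_le hz (maxw_pos hρ hT u z.2)
  have h2 : 0 ≤ (sqrt (g z) - sqrt (maxw ρ T u z.2)) ^ 2 := sq_nonneg _
  simpa [maxwz] using le_trans h2 this

/-- the L1 distance to a Maxwellian with a free parameter -/
theorem l1_eps {g : Om → ℝ} (h : Adm g) {ρ T : ℝ} (hρ : 0 < ρ) (hT : 0 < T) (u : Vel)
    {ε : ℝ} (hε : 0 < ε) :
    ∫ z, |g z - maxwz ρ T u z| ≤ ε * ((∫ z, g z) + ∫ z, maxwz ρ T u z)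
      + relEnt (maxwz ρ T u) g / (2 * ε) := by
  have hm : Integrable (maxwz ρ T u) volume := int_maxw hT u
  have hr : ε * ((∫ z, g z) + ∫ z, maxwz ρ T u z) + relEnt (maxwz ρ T u) g / (2 * ε)
      = ∫ z, (ε * (g z + maxwz ρ T u z)
        + (g z * log (g z / maxwz ρ T u z) - g z + maxwz ρ T u z) / (2 * ε)) := by
    have hgm : Integrable (fun z : Om => g z + maxwz ρ T u z) volume := h.int_self.add hm
    rw [integral_add (hgm.const_mul ε) ((h.int_ent_maxw hρ hT u).div_const _),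
      integral_const_mul, integral_div, integral_add h.int_self hm]
    rfl
  rw [hr]
  apply integral_mono_ae ((h.int_self.sub hm).abs)
    (((h.int_self.add hm).const_mul ε).add ((h.int_ent_maxw hρ hT u).div_const _))
  filter_upwards [h.nonneg] with z hz
  exact abs_sub_le_ent hz (maxw_pos hρ hT u z.2) hε

/-- the optimisation in the free parameter -/
theorem opt_eps {A B H : ℝ} (hA : 0 ≤ A) (hB : 0 ≤ B) (hH : 0 ≤ H)
    (h : ∀ ε : ℝ, 0 < ε → A ≤ ε * B + H / (2 * ε)) : A ^ 2 ≤ 2 * B * H := by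
  rcases hA.eq_or_lt with h0 | hApos
  · subst h0
    have : 0 ≤ 2 * B * H := by positivity
    simpa using this
  rcases hB.eq_or_lt with hb | hBpos
  · subst hb
    exfalso
    have h1 := h ((H + 1) / A) (by positivity)
    have e : H / (2 * ((H + 1) / A)) = H * A / (2 * (H + 1)) := by
      field_simp
    rw [e, mul_zero, zero_add] at h1
    have h2 : H * A / (2 * (H + 1)) < A := by
      rw [div_lt_iff₀ (by positivity)]
      nlinarith
    linarith
  · have h1 := h (A / (2 * B)) (by positivity)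
    have e : A / (2 * B) * B + H / (2 * (A / (2 * B))) = A / 2 + H * B / A := by
      field_simp
    rw [e] at h1
    have h2 : A / 2 ≤ H * B / A := by linarith
    rw [le_div_iff₀ hApos] at h2
    nlinarith

theorem l1_sq {g : Om → ℝ} (h : Adm g) {ρ T : ℝ} (hρ : 0 < ρ) (hT : 0 < T) (u : Vel) :
    (∫ z, |g z - maxwz ρ T u z|) ^ 2
      ≤ 2 * ((∫ z, g z) + ∫ z, maxwz ρ T u z) * relEnt (maxwz ρ T u) g := by
  refine opt_eps (integral_nonneg fun z => abs_nonneg _) ?_ (relEnt_nonneg h hρ hT u)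
    fun ε hε => l1_eps h hρ hT u hε
  have h1 : 0 ≤ ∫ z, g z := integral_nonneg_of_ae h.nonneg
  have h2 : 0 ≤ ∫ z, maxwz ρ T u z :=
    integral_nonneg fun z => (maxw_pos hρ hT u z.2).le
  linarith

theorem stab {F₀ g : Om → ℝ} (h₀ : Adm F₀) (hs : Slice F₀ g) {ρ T : ℝ} (hρ : 0 < ρ)
    (hT : 0 < T) (hT1 : T ≤ 1) (u : Vel) :
    relEnt (maxwz ρ T u) g ≤ relEnt (maxwz ρ T u) F₀ ∧
      (∫ z, |g z - maxwz ρ T u z|) ^ 2
        ≤ 2 * ((∫ z, F₀ z) + ∫ z, maxwz ρ T u z) * relEnt (maxwz ρ T u) F₀ := by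
  have hL := lyapunov h₀ hs hρ hT hT1 u
  refine ⟨hL, ?_⟩
  have h1 := l1_sq hs.adm hρ hT u
  rw [hs.mass] at h1
  have h2 : 0 ≤ ∫ z, F₀ z := integral_nonneg_of_ae h₀.nonneg
  have h3 : 0 ≤ ∫ z, maxwz ρ T u z :=
    integral_nonneg fun z => (maxw_pos hρ hT u z.2).le
  exact h1.trans (mul_le_mul_of_nonneg_left hL (by positivity))

theorem relEnt_self {ρ T : ℝ} (hρ : 0 < ρ) (hT : 0 < T) (u : Vel) :
    relEnt (maxwz ρ T u) (maxwz ρ T u) = 0 := by
  unfold relEnt
  have : ∀ z : Om, maxwz ρ T u z * log (maxwz ρ T u z / maxwz ρ T u z) - maxwz ρ T u z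
      + maxwz ρ T u z = 0 := by
    intro z
    have hp : maxwz ρ T u z ≠ 0 := (maxw_pos hρ hT u z.2).ne'
    rw [div_self hp, log_one]
    ring
  simp_rw [this]
  simp

theorem slice_self {ρ T : ℝ} (hρ : 0 < ρ) (hT : 0 < T) (u : Vel) :
    Slice (maxwz ρ T u) (maxwz ρ T u) :=
  ⟨adm_maxw hρ hT u, rfl, rfl, le_rfl, le_rfl⟩

theorem uniq {g : Om → ℝ} {ρ T : ℝ} (hρ : 0 < ρ) (hT : 0 < T) (hT1 : T ≤ 1) (u : Vel)
    (hs : Slice (maxwz ρ T u) g) : g =ᵐ[volume] maxwz ρ T u := by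
  have hadm : Adm (maxwz ρ T u) := adm_maxw hρ hT u
  have h := (stab hadm hs hρ hT hT1 u).2
  rw [relEnt_self hρ hT u, mul_zero] at h
  have h0 : 0 ≤ ∫ z, |g z - maxwz ρ T u z| := integral_nonneg fun z => abs_nonneg _
  have h1 : ∫ z, |g z - maxwz ρ T u z| = 0 := by
    have : (∫ z, |g z - maxwz ρ T u z|) ^ 2 = 0 := le_antisymm h (sq_nonneg _)
    exact pow_eq_zero_iff (two_ne_zero) |>.mp this
  have hi : Integrable (fun z => |g z - maxwz ρ T u z|) volume :=
    (hs.adm.int_self.sub (int_maxw hT u)).abs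
  rw [integral_eq_zero_iff_of_nonneg (fun z => abs_nonneg _) hi] at h1
  filter_upwards [h1] with z hz
  have : |g z - maxwz ρ T u z| = 0 := hz
  exact sub_eq_zero.mp (abs_eq_zero.mp this)

theorem two_sol {F₀ g₁ g₂ : Om → ℝ} (h₀ : Adm F₀) (h₁ : Slice F₀ g₁) (h₂ : Slice F₀ g₂)
    {ρ T : ℝ} (hρ : 0 < ρ) (hT : 0 < T) (hT1 : T ≤ 1) (u : Vel) :
    ∫ z, |g₁ z - g₂ z| ≤
      2 * sqrt (2 * ((∫ z, F₀ z) + ∫ z, maxwz ρ T u z) * relEnt (maxwz ρ T u) F₀) := by
  have hm : Integrable (maxwz ρ T u) volume := int_maxw hT u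
  have i1 : Integrable (fun z => |g₁ z - maxwz ρ T u z|) volume :=
    (h₁.adm.int_self.sub hm).abs
  have i2 : Integrable (fun z => |g₂ z - maxwz ρ T u z|) volume :=
    (h₂.adm.int_self.sub hm).abs
  have hle : ∫ z, |g₁ z - g₂ z|
      ≤ ∫ z, (|g₁ z - maxwz ρ T u z| + |g₂ z - maxwz ρ T u z|) := by
    apply integral_mono ((h₁.adm.int_self.sub h₂.adm.int_self).abs) (i1.add i2)
    intro z
    have := abs_sub_le (g₁ z) (maxwz ρ T u z) (g₂ z)
    rw [abs_sub_comm (maxwz ρ T u z) (g₂ z)] at this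
    exact this
  rw [integral_add i1 i2] at hle
  have b1 := abs_le_sqrt (stab h₀ h₁ hρ hT hT1 u).2
  have b2 := abs_le_sqrt (stab h₀ h₂ hρ hT hT1 u).2
  have c1 := (le_abs_self _).trans b1
  have c2 := (le_abs_self _).trans b2
  linarith

end Vale.Agent.Lib.P140S
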